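import Vale.Agent.P146.Bd4.B5

/-!
# P146: levels at which the constant of the first block is close to the limit
-/

open MeasureTheory ProbabilityTheory Filter Topology Set

namespace Vale.Agent.P146.R3.H793

open Vale.Agent.P157.Par
open Vale.Agent.P146
open Vale.Agent.P146.Gap
open Vale.Agent.P146.Pw2
open Vale.Agent.P146.Lb
open Vale.Agent.P146.Sh
open Vale.Agent.P367.Cl

lemma sel_gm_nonneg (n d : ℕ) : 0 ≤ gm n d := by unfold gm; positivity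

lemma sel_gm_succ (n d : ℕ) : gm n (d + 1) = gm n d + 1 / ((n : ℝ) + 1) := by
  unfold gm
  push_cast
  ring

/-- `y⁵` over one step of the grid -/
lemma sel_step (n d : ℕ) : 5 * (1 / ((n : ℝ) + 1)) * gm n d ^ 4 ≤
    gm n (d + 1) ^ 5 - gm n d ^ 5 := by
  have h2 : 0 ≤ gm n d := sel_gm_nonneg n d
  have h3 : 0 ≤ 1 / ((n : ℝ) + 1) := by positivity
  rw [sel_gm_succ]
  generalize gm n d = x at h2 ⊢
  generalize 1 / ((n : ℝ) + 1) = h at h3 ⊢
  have : (x + h) ^ 5 - x ^ 5 = 5 * h * x ^ 4 + h ^ 2 * (10 * x ^ 3 + 10 * x ^ 2 * h + 5 * x * h ^ 2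
    + h ^ 3) := by ring
  rw [this]
  have h4 : 0 ≤ h ^ 2 * (10 * x ^ 3 + 10 * x ^ 2 * h + 5 * x * h ^ 2 + h ^ 3) := by positivity
  linarith

/-- the gap between the two ends of the window -/
lemma sel_gap {A C e x y U W P : ℝ} (he : 0 < e) (he1 : e ≤ 1) (hx : 0 < x)
    (hy : y = (1 + e) * x) (h6 : C * √y ≤ e / 16)
    (hU : |(U - P) / y ^ 5 - A| ≤ e ^ 2 / 33) (hW : |(W - P) / x ^ 5 - A| ≤ e ^ 2 / 33) :
    (A - e) * (y ^ 5 - x ^ 5) + 0 + C * ((y - x) * (y ^ 4 * √y)) < U - W := by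
  have hy0 : 0 < y := by rw [hy]; positivity
  have hxy : 0 ≤ y - x := by
    rw [hy]
    have : (1 + e) * x - x = e * x := by ring
    rw [this]
    positivity
  have h1 := (abs_le.1 hU).1
  have h2 := (abs_le.1 hW).2
  have hx5 : 0 < x ^ 5 := by positivity
  have hy5 : 0 < y ^ 5 := by positivity
  have h3 : (A - e ^ 2 / 33) * y ^ 5 ≤ U - P := by
    have : A - e ^ 2 / 33 ≤ (U - P) / y ^ 5 := by linarith only [h1]
    rwa [le_div_iff₀ hy5] at this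
  have h4 : W - P ≤ (A + e ^ 2 / 33) * x ^ 5 := by
    have : (W - P) / x ^ 5 ≤ A + e ^ 2 / 33 := by linarith only [h2]
    rwa [div_le_iff₀ hx5] at this
  have h5 : C * ((y - x) * (y ^ 4 * √y)) ≤ e / 16 * ((y - x) * y ^ 4) := by
    have h7 : 0 ≤ (y - x) * y ^ 4 := mul_nonneg hxy (by positivity)
    calc C * ((y - x) * (y ^ 4 * √y)) = C * √y * ((y - x) * y ^ 4) := by ring
      _ ≤ _ := mul_le_mul_of_nonneg_right h6 h7
  have e1 : y ^ 5 = (1 + e) ^ 5 * x ^ 5 := by rw [hy]; ring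
  have e2 : (y - x) * y ^ 4 = e * (1 + e) ^ 4 * x ^ 5 := by rw [hy]; ring
  have h8 : (1 + e) ^ 4 ≤ 16 := by
    calc (1 + e) ^ 4 ≤ 2 ^ 4 := pow_le_pow_left₀ (by linarith) (by linarith) 4
      _ = 16 := by norm_num
  have h9 : (1 + e) ^ 5 ≤ 32 := by
    calc (1 + e) ^ 5 ≤ 2 ^ 5 := pow_le_pow_left₀ (by linarith) (by linarith) 5
      _ = 32 := by norm_num
  have h10 : 1 + 5 * e ≤ (1 + e) ^ 5 := by
    have : (1 + e) ^ 5 = 1 + 5 * e + (10 * e ^ 2 + 10 * e ^ 3 + 5 * e ^ 4 + e ^ 5) := by ring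
    have h11 : 0 ≤ 10 * e ^ 2 + 10 * e ^ 3 + 5 * e ^ 4 + e ^ 5 := by positivity
    linarith only [this, h11]
  rw [e2] at h5
  rw [e1] at h3 ⊢
  have h12 : e / 16 * (e * (1 + e) ^ 4 * x ^ 5) ≤ e ^ 2 * x ^ 5 := by
    have : e / 16 * (e * (1 + e) ^ 4 * x ^ 5) = (1 + e) ^ 4 * (e ^ 2 * x ^ 5 / 16) := by ring
    rw [this]
    calc (1 + e) ^ 4 * (e ^ 2 * x ^ 5 / 16) ≤ 16 * (e ^ 2 * x ^ 5 / 16) :=
          mul_le_mul_of_nonneg_right h8 (by positivity)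
      _ = e ^ 2 * x ^ 5 := by ring
  have h13 : e ^ 2 / 33 * ((1 + e) ^ 5 * x ^ 5) + e ^ 2 / 33 * x ^ 5 ≤ e ^ 2 * x ^ 5 := by
    have : e ^ 2 / 33 * ((1 + e) ^ 5 * x ^ 5) + e ^ 2 / 33 * x ^ 5 =
        ((1 + e) ^ 5 + 1) * (e ^ 2 * x ^ 5 / 33) := by ring
    rw [this]
    calc ((1 + e) ^ 5 + 1) * (e ^ 2 * x ^ 5 / 33) ≤ 33 * (e ^ 2 * x ^ 5 / 33) :=
          mul_le_mul_of_nonneg_right (by linarith only [h9]) (by positivity)
      _ = e ^ 2 * x ^ 5 := by ring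
  have h14 : 5 * e ^ 2 * x ^ 5 ≤ e * ((1 + e) ^ 5 * x ^ 5 - x ^ 5) := by
    have : e * ((1 + e) ^ 5 * x ^ 5 - x ^ 5) = ((1 + e) ^ 5 - 1) * (e * x ^ 5) := by ring
    rw [this]
    calc 5 * e ^ 2 * x ^ 5 = (5 * e) * (e * x ^ 5) := by ring
      _ ≤ _ := mul_le_mul_of_nonneg_right (by linarith only [h10]) (by positivity)
  have h15 : 0 < e ^ 2 * x ^ 5 := by positivity
  have h16 : (A - e) * ((1 + e) ^ 5 * x ^ 5 - x ^ 5) = A * ((1 + e) ^ 5 * x ^ 5) - A * x ^ 5 -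
      e * ((1 + e) ^ 5 * x ^ 5 - x ^ 5) := by ring
  rw [h16]
  have h17 : (A - e ^ 2 / 33) * ((1 + e) ^ 5 * x ^ 5) = A * ((1 + e) ^ 5 * x ^ 5) -
      e ^ 2 / 33 * ((1 + e) ^ 5 * x ^ 5) := by ring
  have h18 : (A + e ^ 2 / 33) * x ^ 5 = A * x ^ 5 + e ^ 2 / 33 * x ^ 5 := by ring
  rw [h17] at h3
  rw [h18] at h4
  linarith only [h3, h4, h5, h12, h13, h14, h15]

/-- the constant at one level is at most `A + e` -/
lemma sel_up {b A C e : ℝ} (hb : 1 < b) (he : 0 < e) (he1 : e ≤ 1) {n d : ℕ} (hd : 1 ≤ d)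
    (hdn : d ≤ n) {r r' : ℕ → ℝ} (hr : IsMinD b n d r) (hr' : BPath b n r')
    (h6 : SKr b n (gm n) r' + 9 / 80 * vv n r ^ 12 / kk n r ^ 6 * gm n d ^ 5 ≤
      SKr b n (gm n) r + C * (gm n d ^ 5 * √(gm n d)))
    (h9 : |(Vx b (gm n d) - P0 b) / gm n d ^ 5 - A| ≤ e ^ 2 / 33)
    (hs : C * √(gm n d) ≤ e / 16) (hg1 : gm n d ≤ 1)
    (h12 : 8 * b ^ 2 / e ≤ gm n d ^ 5 * ((n : ℝ) + 1)) :
    9 / 80 * vv n r ^ 12 / kk n r ^ 6 ≤ A + e := by
  have hn1 : (0 : ℝ) < (n : ℝ) + 1 := by positivity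
  have hgd : 0 < gm n d := grid_gm_pos hd
  have h7 := p0_le hb hr'
  have h8 := vx_ge hb hd hdn hgd hg1 (by
    unfold gm
    refine div_lt_div_of_pos_right ?_ hn1
    exact_mod_cast (by omega : d - 1 < d)) hr
  have hg5 : 0 < gm n d ^ 5 := by positivity
  have h10 : Vx b (gm n d) - P0 b ≤ (A + e ^ 2 / 33) * gm n d ^ 5 := by
    have : (Vx b (gm n d) - P0 b) / gm n d ^ 5 ≤ A + e ^ 2 / 33 := by
      linarith only [(abs_le.1 h9).2]
    rwa [div_le_iff₀ hg5] at this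
  have h11 : 2 * b ^ 2 / ((n : ℝ) + 1) ≤ e / 4 * gm n d ^ 5 := by
    rw [div_le_iff₀ he] at h12
    rw [div_le_iff₀ hn1]
    linarith only [h12]
  have h13 : C * (gm n d ^ 5 * √(gm n d)) ≤ e / 16 * gm n d ^ 5 := by
    calc C * (gm n d ^ 5 * √(gm n d)) = C * √(gm n d) * gm n d ^ 5 := by ring
      _ ≤ _ := mul_le_mul_of_nonneg_right hs hg5.le
  have h14 : 9 / 80 * vv n r ^ 12 / kk n r ^ 6 * gm n d ^ 5 ≤
      (A + e ^ 2 / 33 + e / 4 + e / 16) * gm n d ^ 5 := by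
    have e1 : (A + e ^ 2 / 33 + e / 4 + e / 16) * gm n d ^ 5 = (A + e ^ 2 / 33) * gm n d ^ 5 +
      e / 4 * gm n d ^ 5 + e / 16 * gm n d ^ 5 := by ring
    rw [e1]
    linarith only [h6, h7, h8, h10, h11, h13]
  have h15 := le_of_mul_le_mul_right h14 hg5
  have h16 : e ^ 2 / 33 ≤ e / 33 := by
    rw [div_le_div_iff_of_pos_right (by norm_num), sq]
    exact mul_le_of_le_one_left he.le he1
  linarith only [h15, h16, he]

/-- one step of the telescoping sum -/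
lemma sel_tele {A C e B : ℝ} {n d D₂ : ℕ} (hC : 0 ≤ C) (heA : e ≤ A)
    (hdD : d < D₂) {V V' : ℝ}
    (hle : V' ≤ V + 1 / ((n : ℝ) + 1) * (5 * B * gm n d ^ 4 + C * (gm n d ^ 4 * √(gm n d))))
    (hs : B ≤ A - e) :
    V' ≤ V + (A - e) * (gm n (d + 1) ^ 5 - gm n d ^ 5) +
      C * ((gm n (d + 1) - gm n d) * (gm n D₂ ^ 4 * √(gm n D₂))) := by
  have hst := sel_step n d
  have hg0 : 0 ≤ gm n d := sel_gm_nonneg n d
  have k1 : 1 / ((n : ℝ) + 1) * (5 * B * gm n d ^ 4) ≤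
      (A - e) * (gm n (d + 1) ^ 5 - gm n d ^ 5) := by
    have h1 : 1 / ((n : ℝ) + 1) * (5 * B * gm n d ^ 4) =
        B * (5 * (1 / ((n : ℝ) + 1)) * gm n d ^ 4) := by ring
    rw [h1]
    calc B * (5 * (1 / ((n : ℝ) + 1)) * gm n d ^ 4) ≤
          (A - e) * (5 * (1 / ((n : ℝ) + 1)) * gm n d ^ 4) :=
          mul_le_mul_of_nonneg_right hs (by positivity)
      _ ≤ _ := mul_le_mul_of_nonneg_left hst (by linarith only [heA])
  have k2 : 1 / ((n : ℝ) + 1) * (C * (gm n d ^ 4 * √(gm n d))) ≤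
      C * ((gm n (d + 1) - gm n d) * (gm n D₂ ^ 4 * √(gm n D₂))) := by
    have h1 : gm n (d + 1) - gm n d = 1 / ((n : ℝ) + 1) := by
      rw [sel_gm_succ]
      ring
    have hgD : gm n d ≤ gm n D₂ := grid_gm_mono hdD.le
    have h2 : gm n d ^ 4 * √(gm n d) ≤ gm n D₂ ^ 4 * √(gm n D₂) :=
      mul_le_mul (pow_le_pow_left₀ hg0 hgD 4) (Real.sqrt_le_sqrt hgD)
        (Real.sqrt_nonneg _) (pow_nonneg (hg0.trans hgD) 4)
    rw [h1]
    calc 1 / ((n : ℝ) + 1) * (C * (gm n d ^ 4 * √(gm n d))) ≤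
          1 / ((n : ℝ) + 1) * (C * (gm n D₂ ^ 4 * √(gm n D₂))) :=
          mul_le_mul_of_nonneg_left (mul_le_mul_of_nonneg_left h2 hC) (by positivity)
      _ = _ := by ring
  have k3 : 1 / ((n : ℝ) + 1) * (5 * B * gm n d ^ 4 + C * (gm n d ^ 4 * √(gm n d))) =
      1 / ((n : ℝ) + 1) * (5 * B * gm n d ^ 4) +
        1 / ((n : ℝ) + 1) * (C * (gm n d ^ 4 * √(gm n d))) := by ring
  rw [k3] at hle
  linarith only [hle, k1, k2]

/-- the telescoping sum -/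
lemma sel_sum {A C e : ℝ} {n D₁ D₂ : ℕ} {V : ℕ → ℝ}
    (h : ∀ d, D₁ ≤ d → d < D₂ → V (d + 1) ≤ V d + (A - e) * (gm n (d + 1) ^ 5 - gm n d ^ 5) +
      C * ((gm n (d + 1) - gm n d) * (gm n D₂ ^ 4 * √(gm n D₂)))) (h12 : D₁ ≤ D₂) :
    V D₂ ≤ V D₁ + (A - e) * (gm n D₂ ^ 5 - gm n D₁ ^ 5) +
      C * ((gm n D₂ - gm n D₁) * (gm n D₂ ^ 4 * √(gm n D₂))) := by
  have key : ∀ j, D₁ + j ≤ D₂ → V (D₁ + j) ≤ V D₁ +
      (A - e) * (gm n (D₁ + j) ^ 5 - gm n D₁ ^ 5) +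
      C * ((gm n (D₁ + j) - gm n D₁) * (gm n D₂ ^ 4 * √(gm n D₂))) := by
    intro j
    induction j with
    | zero => intro _; simp
    | succ j ih =>
      intro hj
      have ih' := ih (by omega)
      have h1 := h (D₁ + j) (by omega) (by omega)
      rw [show D₁ + (j + 1) = D₁ + j + 1 by omega]
      generalize gm n D₂ ^ 4 * √(gm n D₂) = Y at *
      generalize gm n (D₁ + j + 1) = u at *
      generalize gm n (D₁ + j) = w at *
      generalize gm n D₁ = z at *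
      have e1 : (A - e) * (u ^ 5 - z ^ 5) = (A - e) * (u ^ 5 - w ^ 5) +
        (A - e) * (w ^ 5 - z ^ 5) := by ring
      have e2 : C * ((u - z) * Y) = C * ((u - w) * Y) + C * ((w - z) * Y) := by ring
      rw [e1, e2]
      linarith only [ih', h1]
  have h1 := key (D₂ - D₁) (by omega)
  rwa [show D₁ + (D₂ - D₁) = D₂ by omega] at h1

/-- the scale -/
lemma sel_scale {A C cd cu e : ℝ} (hC : 0 < C) (hcd : 0 < cd) (hcu : 0 < cu) (he : 0 < e)
    {G : ℝ → ℝ} (hA : Tendsto G (𝓝[>] 0) (𝓝 A)) : ∃ y₀ : ℝ, 0 < y₀ ∧ y₀ ≤ 1 ∧ y₀ ≤ cd ∧ y₀ ≤ cu ∧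
      (∀ y, 0 ≤ y → y ≤ y₀ → C * √y ≤ e / 16) ∧
      ∀ y, 0 < y → y < y₀ → |G y - A| ≤ e ^ 2 / 33 := by
  have hev : ∀ᶠ y in 𝓝[>] (0 : ℝ), |G y - A| ≤ e ^ 2 / 33 := by
    have h1 := (Metric.tendsto_nhds.1 hA) (e ^ 2 / 33) (by positivity)
    filter_upwards [h1] with y hy
    rw [Real.dist_eq] at hy
    exact hy.le
  obtain ⟨y₁, hy₁, hyV⟩ : ∃ y₁ : ℝ, 0 < y₁ ∧ ∀ y, 0 < y → y < y₁ →
      |G y - A| ≤ e ^ 2 / 33 := by
    rw [eventually_nhdsWithin_iff, Metric.eventually_nhds_iff] at hev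
    obtain ⟨ε, hε, h⟩ := hev
    refine ⟨ε, hε, fun y hy0 hy => h ?_ hy0⟩
    rw [Real.dist_eq, sub_zero, abs_of_pos hy0]
    exact hy
  refine ⟨min (min y₁ 1) (min (min cd cu) ((e / (16 * C)) ^ 2)), by positivity, ?_, ?_, ?_,
    fun y hy hyy => ?_, fun y hy0 hy => hyV y hy0 (hy.trans_le ?_)⟩
  · exact (min_le_left _ _).trans (min_le_right _ _)
  · exact (min_le_right _ _).trans ((min_le_left _ _).trans (min_le_left _ _))
  · exact (min_le_right _ _).trans ((min_le_left _ _).trans (min_le_right _ _))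
  · have q5 : y ≤ (e / (16 * C)) ^ 2 := hyy.trans ((min_le_right _ _).trans (min_le_right _ _))
    have h1 : √y ≤ e / (16 * C) := by
      rw [← Real.sqrt_sq (show 0 ≤ e / (16 * C) by positivity)]
      exact Real.sqrt_le_sqrt q5
    calc C * √y ≤ C * (e / (16 * C)) := mul_le_mul_of_nonneg_left h1 hC.le
      _ = e / 16 := by field_simp
  · exact (min_le_left _ _).trans (min_le_left _ _)

/-- the core -/
lemma sel_core {b A : ℝ} (hb : 1 < b)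
    (hA : Tendsto (fun x => (Vx b x - P0 b) / x ^ 5) (𝓝[>] 0) (𝓝 A)) {e : ℝ} (he : 0 < e)
    (he1 : e ≤ 1) (heA : e ≤ A) : ∃ x₀ : ℝ, 0 < x₀ ∧ ∀ x : ℝ, 0 < x → x < x₀ →
      ∀ᶠ n : ℕ in atTop, ∃ (d : ℕ) (r : ℕ → ℝ), 1 ≤ d ∧ d ≤ n ∧ x ≤ gm n d ∧
        gm n d ≤ (1 + e) * x ∧ IsMinD b n d r ∧ |9 / 80 * vv n r ^ 12 / kk n r ^ 6 - A| ≤ e := by
  have hb0 : 0 < b := by linarith
  obtain ⟨cd, Cd, hcd, hCd, hdown⟩ := down hb
  obtain ⟨cu, Cu, hcu, hCu, hup⟩ := up hb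
  obtain ⟨C, hC⟩ : ∃ C, C = max Cd Cu := ⟨_, rfl⟩
  have hCd' : Cd ≤ C := by rw [hC]; exact le_max_left _ _
  have hCu' : Cu ≤ C := by rw [hC]; exact le_max_right _ _
  have hC0 : 0 < C := by linarith
  clear hC
  obtain ⟨y₀, hy₀0, q2, q3, q4, hsq, hyV⟩ := sel_scale hC0 hcd hcu he hA
  refine ⟨y₀ / (1 + e), by positivity, fun x hx hxx => ?_⟩
  obtain ⟨y, hy⟩ : ∃ y, y = (1 + e) * x := ⟨_, rfl⟩
  have hyy₀ : y < y₀ := by
    rw [lt_div_iff₀ (by positivity)] at hxx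
    rw [hy]
    linarith only [hxx]
  have hxy : x < y := by
    have : 0 < e * x := by positivity
    rw [hy]
    linarith only [this]
  have hy0 : 0 < y := hx.trans hxy
  have hy1 : y < 1 := hyy₀.trans_le q2
  obtain ⟨E, hE⟩ : ∃ E : ℕ → ℝ, E = fun n => (A - e) * (gm n (shlimd y n) ^ 5 -
      gm n (shlimd x n) ^ 5) + 2 * b ^ 2 / ((n : ℝ) + 1) +
      C * ((gm n (shlimd y n) - gm n (shlimd x n)) *
        (gm n (shlimd y n) ^ 4 * √(gm n (shlimd y n)))) := ⟨_, rfl⟩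
  have hElim : Tendsto E atTop (𝓝 ((A - e) * (y ^ 5 - x ^ 5) + 0 +
      C * ((y - x) * (y ^ 4 * √y)))) := by
    have t1 := shlim_td hx
    have t2 := shlim_td hy0
    rw [hE]
    refine ((((t2.pow 5).sub (t1.pow 5)).const_mul _).add ?_).add
      (((t2.sub t1).mul ((t2.pow 4).mul t2.sqrt)).const_mul C)
    exact tendsto_const_nhds.div_atTop shlim_n1
  have hgap := sel_gap (C := C) he he1 hx hy (hsq y hy0.le hyy₀.le) (hyV y hy0 hyy₀)
    (hyV x hx (hxy.trans hyy₀))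
  have hEev : ∀ᶠ n in atTop, E n < Vx b y - Vx b x := hElim.eventually (gt_mem_nhds hgap)
  filter_upwards [hEev, shlim_le hy1, shlim_big hx C 40, shlim_big hx (8 * b ^ 2 / e) 5]
    with n hEn hDn hbig hbig5
  by_contra hcon
  have hlt := shlim_lt hy0 n
  have hlt1 := shlim_lt hx n
  have hg1 : x ≤ gm n (shlimd x n) := shlim_ge x n
  have hg2 : y ≤ gm n (shlimd y n) := shlim_ge y n
  have hD12 : shlimd x n ≤ shlimd y n := shlim_mono hxy.le n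
  have hD₁1 : 1 ≤ shlimd x n := shlim_one hx n
  rw [hE] at hEn
  simp only at hEn
  clear hE hElim hEev hgap
  generalize shlimd x n = D₁ at *
  generalize shlimd y n = D₂ at *
  have hn1 : (0 : ℝ) < (n : ℝ) + 1 := by positivity
  have hwin : ∀ d, D₁ ≤ d → d < D₂ → x ≤ gm n d ∧ gm n d ≤ y := by
    intro d h1 h2
    refine ⟨hg1.trans (grid_gm_mono h1), ?_⟩
    have h3 : gm n d ≤ gm n (D₂ - 1) := grid_gm_mono (by omega)
    linarith only [h3, hlt]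
  have hsmall : ∀ d r, D₁ ≤ d → d < D₂ → IsMinD b n d r →
      9 / 80 * vv n r ^ 12 / kk n r ^ 6 ≤ A - e := by
    intro d r h1 h2 hr
    obtain ⟨hx1, hx2⟩ := hwin d h1 h2
    have hgd : 0 < gm n d := hx.trans_le hx1
    have hm1 : gm n D₁ ≤ gm n d := grid_gm_mono h1
    have hg0 : 0 ≤ gm n D₁ := sel_gm_nonneg n D₁
    obtain ⟨r', hr', h6⟩ := hdown n d r (by omega) (by omega) hr
      (hx2.trans (hyy₀.le.trans q3))
      (hCd'.trans (hbig.trans (mul_le_mul_of_nonneg_right (pow_le_pow_left₀ hg0 hm1 40) hn1.le)))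
    have h7 : Cd * (gm n d ^ 5 * √(gm n d)) ≤ C * (gm n d ^ 5 * √(gm n d)) :=
      mul_le_mul_of_nonneg_right hCd' (by positivity)
    have h8 := sel_up (A := A) (C := C) hb he he1 (by omega) (by omega) hr hr'
      (h6.trans (by linarith only [h7])) (hyV (gm n d) hgd (hx2.trans_lt hyy₀))
      (hsq (gm n d) hgd.le (hx2.trans hyy₀.le)) (hx2.trans hy1.le)
      (hbig5.trans (mul_le_mul_of_nonneg_right (pow_le_pow_left₀ hg0 hm1 5) hn1.le))
    by_contra h16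
    push Not at h16
    refine hcon ⟨d, r, by omega, by omega, hx1, by rw [← hy]; exact hx2, hr, ?_⟩
    rw [abs_le]
    constructor
    · linarith only [h16]
    · linarith only [h8]
  have hex : ∀ d, ∃ r, d ≤ n → IsMinD b n d r := by
    intro d
    by_cases h : d ≤ n
    · obtain ⟨r, hr⟩ := exists_minD (n := n) (d := d) hb0 h
      exact ⟨r, fun _ => hr⟩
    · exact ⟨fun _ => 0, fun h' => absurd h' h⟩
  choose R hR using hex
  have hfin := sel_sum (A := A) (C := C) (e := e) (n := n) (D₁ := D₁) (D₂ := D₂)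
    (V := fun d => SKr b n (gm n) (R d)) (fun d h1 h2 => by
      have hRd := hR d (by omega)
      have hRd1 := hR (d + 1) (by omega)
      obtain ⟨hx1, hx2⟩ := hwin d h1 h2
      have hm1 : gm n D₁ ≤ gm n d := grid_gm_mono h1
      have hg0 : 0 ≤ gm n D₁ := sel_gm_nonneg n D₁
      obtain ⟨r', hr', hz, hle⟩ := hup n d (R d) (by omega) (by omega) hRd
        (hx2.trans (hyy₀.le.trans q4))
        (hCu'.trans (hbig.trans (mul_le_mul_of_nonneg_right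
          (pow_le_pow_left₀ hg0 hm1 40) hn1.le)))
      have hmin := hRd1.2.2 r' hr' hz
      have hs := hsmall d (R d) h1 h2 hRd
      refine sel_tele hC0.le heA h2 (B := 9 / 80 * vv n (R d) ^ 12 / kk n (R d) ^ 6)
        (hmin.trans (hle.trans ?_)) hs
      have h7 : Cu * (gm n d ^ 4 * √(gm n d)) ≤ C * (gm n d ^ 4 * √(gm n d)) :=
        mul_le_mul_of_nonneg_right hCu' (by positivity)
      have h8 : 1 / ((n : ℝ) + 1) * (9 / 16 * vv n (R d) ^ 12 / kk n (R d) ^ 6 * gm n d ^ 4 +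
          Cu * (gm n d ^ 4 * √(gm n d))) ≤
          1 / ((n : ℝ) + 1) * (5 * (9 / 80 * vv n (R d) ^ 12 / kk n (R d) ^ 6) * gm n d ^ 4 +
          C * (gm n d ^ 4 * √(gm n d))) := by
        refine mul_le_mul_of_nonneg_left ?_ (by positivity)
        have h9 : 5 * (9 / 80 * vv n (R d) ^ 12 / kk n (R d) ^ 6) =
          9 / 16 * vv n (R d) ^ 12 / kk n (R d) ^ 6 := by ring
        rw [h9]
        linarith only [h7]
      linarith only [h8]) hD12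
  have hR1 := hR D₁ (by omega)
  have hR2 := hR D₂ (by omega)
  have hgD2 : gm n D₂ ≤ 1 := by
    unfold gm
    rw [div_le_one hn1]
    have : ((D₂ : ℕ) : ℝ) ≤ n := by exact_mod_cast hDn
    linarith only [this]
  have z1 : Vx b y ≤ SKr b n (gm n) (R D₂) :=
    (shlim_Vx hb hg2 hgD2).trans (vx_le hb (by omega) (by omega) hR2.1 hR2.2.1)
  have z2 := vx_ge hb hD₁1 (by omega) hx (by linarith only [hxy, hy1]) hlt1 hR1
  linarith only [z1, z2, hfin, hEn]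

/-- **The constants of the first block.**  Let `A` be the limit of `(V(x) - V(0)) / x⁵`.  For every
small `x` and all large `n` there is a level `d` of the grid with `x ≤ d/(n+1) ≤ (1+e) x` and a
constrained minimiser for which `(9/80) v¹² / k⁶` is close to `A`. -/
theorem sel {b A : ℝ} (hb : 1 < b)
    (hA : Tendsto (fun x => (Vx b x - P0 b) / x ^ 5) (𝓝[>] 0) (𝓝 A)) :
    ∀ e : ℝ, 0 < e → ∃ x₀ : ℝ, 0 < x₀ ∧ ∀ x : ℝ, 0 < x → x < x₀ → ∀ᶠ n : ℕ in atTop,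
      ∃ (d : ℕ) (r : ℕ → ℝ), 1 ≤ d ∧ d ≤ n ∧ x ≤ gm n d ∧ gm n d ≤ (1 + e) * x ∧
        IsMinD b n d r ∧ |9 / 80 * vv n r ^ 12 / kk n r ^ 6 - A| ≤ e := by
  obtain ⟨A', hA'0, hA'⟩ := lim_A hb
  have hA0 : 0 < A := by
    rw [tendsto_nhds_unique hA hA']
    exact hA'0
  intro e he
  obtain ⟨x₀, hx₀, h⟩ := sel_core hb hA (e := min e (min 1 A)) (by positivity)
    ((min_le_right _ _).trans (min_le_left _ _)) ((min_le_right _ _).trans (min_le_right _ _))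
  refine ⟨x₀, hx₀, fun x hx hxx => ?_⟩
  filter_upwards [h x hx hxx] with n hn
  obtain ⟨d, r, h1, h2, h3, h4, h5, h6⟩ := hn
  refine ⟨d, r, h1, h2, h3, h4.trans ?_, h5, h6.trans (min_le_left _ _)⟩
  exact mul_le_mul_of_nonneg_right (by linarith only [min_le_left e (min 1 A)]) hx.le

end Vale.Agent.P146.R3.H793
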