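import Mathlib

/-!
# P146: convergence of power series with nonnegative coefficients, coefficient by coefficient
-/

open Filter Finset Topology

namespace Vale.Agent.P146.R3.H793

/-- the remainder of a power series with nonnegative coefficients -/
lemma tail_bound {a : ℕ → ℝ} (ha : ∀ k, 0 ≤ a k) {S s₀ t : ℝ} (h0 : 0 ≤ t) (h1 : t ≤ 1 / 2)
    (hS : HasSum (fun k => a k * t ^ k) S) (hs : HasSum (fun k => a k * (1 / 2 : ℝ) ^ k) s₀)
    (k : ℕ) :
    0 ≤ S - ∑ j ∈ range k, a j * t ^ j ∧ S - ∑ j ∈ range k, a j * t ^ j ≤ (2 * t) ^ k * s₀ := by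
  have h2 := (hasSum_nat_add_iff' k).2 hS
  have h3 := (hasSum_nat_add_iff' k).2 hs
  refine ⟨h2.nonneg fun j => mul_nonneg (ha _) (pow_nonneg h0 _), ?_⟩
  have h4 : HasSum (fun j => (2 * t) ^ k * (a (j + k) * (1 / 2 : ℝ) ^ (j + k)))
      ((2 * t) ^ k * (s₀ - ∑ j ∈ range k, a j * (1 / 2 : ℝ) ^ j)) := h3.mul_left _
  have h5 : S - ∑ j ∈ range k, a j * t ^ j ≤
      (2 * t) ^ k * (s₀ - ∑ j ∈ range k, a j * (1 / 2 : ℝ) ^ j) := by
    refine hasSum_le (fun j => ?_) h2 h4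
    have h6 : t ^ (j + k) ≤ (2 * t) ^ k * (1 / 2 : ℝ) ^ (j + k) := by
      rw [pow_add, pow_add, mul_pow]
      have h7 : t ^ j ≤ (1 / 2 : ℝ) ^ j := pow_le_pow_left₀ h0 h1 j
      have h8 : (2 : ℝ) ^ k * (1 / 2 : ℝ) ^ k = 1 := by
        rw [← mul_pow]
        norm_num
      calc t ^ j * t ^ k ≤ (1 / 2 : ℝ) ^ j * t ^ k :=
            mul_le_mul_of_nonneg_right h7 (pow_nonneg h0 k)
        _ = (2 : ℝ) ^ k * t ^ k * ((1 / 2 : ℝ) ^ j * (1 / 2 : ℝ) ^ k) := by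
            linear_combination ((-(1 / 2 : ℝ) ^ j * t ^ k)) * h8
    calc a (j + k) * t ^ (j + k) ≤ a (j + k) * ((2 * t) ^ k * (1 / 2 : ℝ) ^ (j + k)) :=
          mul_le_mul_of_nonneg_left h6 (ha _)
      _ = (2 * t) ^ k * (a (j + k) * (1 / 2 : ℝ) ^ (j + k)) := by ring
  have h6 : 0 ≤ ∑ j ∈ range k, a j * (1 / 2 : ℝ) ^ j :=
    sum_nonneg fun j _ => mul_nonneg (ha _) (by positivity)
  have h7 : 0 ≤ (2 * t) ^ k := by positivity
  nlinarith [mul_nonneg h7 h6]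

/-- the coefficient of `t ^ k` -/
lemma coef_bound {a : ℕ → ℝ} (ha : ∀ k, 0 ≤ a k) {S s₀ t : ℝ} (h0 : 0 < t) (h1 : t ≤ 1 / 2)
    (hS : HasSum (fun k => a k * t ^ k) S) (hs : HasSum (fun k => a k * (1 / 2 : ℝ) ^ k) s₀)
    (k : ℕ) :
    |(S - ∑ j ∈ range k, a j * t ^ j) / t ^ k - a k| ≤ 2 ^ (k + 1) * s₀ * t := by
  have h2 := tail_bound ha h0.le h1 hS hs (k + 1)
  rw [sum_range_succ] at h2
  have hp : 0 < t ^ k := pow_pos h0 k
  have e : (S - ∑ j ∈ range k, a j * t ^ j) / t ^ k - a k =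
      (S - (∑ j ∈ range k, a j * t ^ j + a k * t ^ k)) / t ^ k := by
    field_simp
    ring
  rw [e, abs_of_nonneg (div_nonneg h2.1 hp.le), div_le_iff₀ hp]
  refine h2.2.trans (le_of_eq ?_)
  ring

/-- **Convergence of power series with nonnegative coefficients on `[0, 1/2]` implies convergence
of the coefficients.** -/
theorem coef_tendsto {a : ℕ → ℕ → ℝ} {c : ℕ → ℝ} {f : ℕ → ℝ → ℝ} {g : ℝ → ℝ}
    (ha : ∀ᶠ n in atTop, ∀ k, 0 ≤ a n k) (hc : ∀ k, 0 ≤ c k)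
    (hf : ∀ᶠ n in atTop, ∀ t, 0 ≤ t → t ≤ 1 / 2 → HasSum (fun k => a n k * t ^ k) (f n t))
    (hg : ∀ t, 0 ≤ t → t ≤ 1 / 2 → HasSum (fun k => c k * t ^ k) (g t))
    (hl : ∀ t, 0 ≤ t → t ≤ 1 / 2 → Tendsto (fun n => f n t) atTop (𝓝 (g t))) (k : ℕ) :
    Tendsto (fun n => a n k) atTop (𝓝 (c k)) := by
  induction k using Nat.strong_induction_on with
  | _ k ih =>
    rw [Metric.tendsto_atTop]
    intro ε hε
    obtain ⟨C, hC⟩ : ∃ C, C = 2 ^ (k + 1) * (|g (1 / 2)| + 1) := ⟨_, rfl⟩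
    have hC0 : 0 < C := by rw [hC]; positivity
    obtain ⟨t, ht⟩ : ∃ t, t = min (1 / 2) (ε / (4 * C)) := ⟨_, rfl⟩
    have ht0 : 0 < t := by rw [ht]; positivity
    have ht1 : t ≤ 1 / 2 := by rw [ht]; exact min_le_left _ _
    have ht2 : C * t ≤ ε / 4 := by
      have : t ≤ ε / (4 * C) := by rw [ht]; exact min_le_right _ _
      calc C * t ≤ C * (ε / (4 * C)) := mul_le_mul_of_nonneg_left this hC0.le
        _ = ε / 4 := by field_simp
    have hp : 0 < t ^ k := pow_pos ht0 k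
    have hlim : Tendsto (fun n => (f n t - ∑ j ∈ range k, a n j * t ^ j) / t ^ k) atTop
        (𝓝 ((g t - ∑ j ∈ range k, c j * t ^ j) / t ^ k)) := by
      refine Tendsto.div_const ?_ _
      refine (hl t ht0.le ht1).sub (tendsto_finsetSum _ fun j hj => ?_)
      exact (ih j (mem_range.1 hj)).mul_const _
    have hlim2 := hl (1 / 2) (by norm_num) le_rfl
    have e1 := (Metric.tendsto_atTop.1 hlim) (ε / 4) (by linarith)
    have e2 := (Metric.tendsto_atTop.1 hlim2) 1 one_pos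
    obtain ⟨N1, hN1⟩ := e1
    obtain ⟨N2, hN2⟩ := e2
    obtain ⟨N3, hN3⟩ := eventually_atTop.1 (ha.and hf)
    refine ⟨max N1 (max N2 N3), fun n hn => ?_⟩
    have hn1 := hN1 n ((le_max_left _ _).trans hn)
    have hn2 := hN2 n ((le_max_left _ _).trans ((le_max_right _ _).trans hn))
    have hn3 := hN3 n ((le_max_right _ _).trans ((le_max_right _ _).trans hn))
    rw [Real.dist_eq] at hn1 hn2 ⊢
    have b1 := coef_bound hn3.1 ht0 ht1 (hn3.2 t ht0.le ht1)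
      (hn3.2 (1 / 2) (by norm_num) le_rfl) k
    have b2 := coef_bound hc ht0 ht1 (hg t ht0.le ht1) (hg (1 / 2) (by norm_num) le_rfl) k
    have f1 : 2 ^ (k + 1) * f n (1 / 2) * t ≤ ε / 4 := by
      refine le_trans ?_ ht2
      refine mul_le_mul_of_nonneg_right ?_ ht0.le
      rw [hC]
      refine mul_le_mul_of_nonneg_left ?_ (by positivity)
      have := abs_lt.1 hn2
      have := le_abs_self (g (1 / 2))
      linarith
    have f2 : 2 ^ (k + 1) * g (1 / 2) * t ≤ ε / 4 := by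
      refine le_trans ?_ ht2
      refine mul_le_mul_of_nonneg_right ?_ ht0.le
      rw [hC]
      refine mul_le_mul_of_nonneg_left ?_ (by positivity)
      have := le_abs_self (g (1 / 2))
      linarith
    have g1 := abs_le.1 (b1.trans f1)
    have g2 := abs_le.1 (b2.trans f2)
    have g3 := abs_lt.1 hn1
    rw [abs_lt]
    constructor <;> linarith [g1.1, g1.2, g2.1, g2.2, g3.1, g3.2]

end Vale.Agent.P146.R3.H793
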