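import Vale.Agent.P146.R3.H793.Pars
import Vale.Agent.P146.R3.H793.Coef
import Vale.Agent.P146.R2.H749.Levels

/-!
# P146: the covariance of correlated copies is the generating function of the Hermite levels
-/

open MeasureTheory ProbabilityTheory Filter Topology

namespace Vale.Agent.P146.R3.H793

open Vale.Agent.P146 Vale.Agent.P146.Ub.Cv Vale.Agent.P146.H605 Vale.Agent.P146.R2
  Vale.Agent.P146.R2.H749

section gen

variable {ι : Type*} [Fintype ι]

/-- **Parseval's identity at correlation `t`.** -/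
theorem QQ_hasSum [DecidableEq ι] {A : (ι → ℝ) → ℝ} (hA : Dom A) {t : ℝ} (h0 : 0 ≤ t)
    (h1 : t ≤ 1) :
    HasSum (fun α : ι → ℕ => t ^ (∑ i, α i) * (co A α ^ 2 / ∏ i, ((α i).factorial : ℝ)))
      (QQ A t) := by
  obtain ⟨P, hP⟩ : ∃ P : (ι → ℝ) → ℝ, P = fun x =>
    ∫ y, A (mix (Real.sqrt t) (Real.sqrt (1 - t)) x y) ∂(gpi ι) := ⟨_, rfl⟩
  have iP2 : Integrable (fun x => P x ^ 2) (gpi ι) := by
    have h := (int_pair hA h0 h1).integral_prod_left
    refine h.congr (Filter.Eventually.of_forall fun z => ?_)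
    simp only
    rw [integral_prod_mul (fun y => A (mix (Real.sqrt t) (Real.sqrt (1 - t)) z y))
      (fun y => A (mix (Real.sqrt t) (Real.sqrt (1 - t)) z y)), hP, sq]
  have mP : AEStronglyMeasurable P (gpi ι) := by
    rw [hP]
    have hc : Continuous (fun q : (ι → ℝ) × (ι → ℝ) =>
        A (mix (Real.sqrt t) (Real.sqrt (1 - t)) q.1 q.2)) := by
      refine hA.cont.comp ?_
      unfold mix
      fun_prop
    exact (hc.stronglyMeasurable.integral_prod_right (ν := gpi ι)).aestronglyMeasurable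
  have hP2 : MemLp P 2 (gpi ι) := (memLp_two_iff_integrable_sq mP).2 iP2
  have h2 := parseval hP2
  have h3 : ∀ α : ι → ℕ, co P α ^ 2 / ∏ i, ((α i).factorial : ℝ) =
      t ^ (∑ i, α i) * (co A α ^ 2 / ∏ i, ((α i).factorial : ℝ)) := by
    intro α
    have h4 : co P α = Real.sqrt t ^ (∑ i, α i) * co A α := by
      rw [← int_P_heM hA h0 h1 α, hP]
      rfl
    have h5 : (Real.sqrt t ^ (∑ i, α i)) ^ 2 = t ^ (∑ i, α i) := by
      rw [← pow_mul, mul_comm, pow_mul, Real.sq_sqrt h0]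
    rw [h4, mul_pow, h5]
    ring
  have h6 : QQ A t = ∫ x, P x ^ 2 ∂(gpi ι) := by rw [hP]; rfl
  rw [h6]
  rw [show (fun α : ι → ℕ => co P α ^ 2 / ∏ i, ((α i).factorial : ℝ)) =
    fun α => t ^ (∑ i, α i) * (co A α ^ 2 / ∏ i, ((α i).factorial : ℝ)) from funext h3] at h2
  exact h2

end gen

variable (n : ℕ) (β : ℝ)

/-- The part of the variance of the free energy carried by the Hermite level `k`: the sum of the
squares of the coefficients of total degree `k`. -/
noncomputable def level (n : ℕ) (β : ℝ) (k : ℕ) : ℝ :=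
  ∑ α ∈ (levs n k).filter (fun α => ∑ e, α e = k), hcoef n β α ^ 2

lemma level_nonneg (k : ℕ) : 0 ≤ level n β k := Finset.sum_nonneg fun _ _ => sq_nonneg _

lemma levs_succ_filter (m : ℕ) :
    (levs n (m + 1)).filter (fun α => ∑ e, α e ≤ m) = levs n m := by
  ext α
  rw [Finset.mem_filter, mem_levs, mem_levs]
  omega

lemma sum_levs (t : ℝ) (m : ℕ) : ∑ k ∈ Finset.range (m + 1), level n β k * t ^ k =
    ∑ α ∈ levs n m, t ^ (∑ e, α e) * hcoef n β α ^ 2 := by
  induction m with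
  | zero =>
    have h : levs n 0 = ∅ := by
      refine Finset.eq_empty_of_forall_notMem fun α hα => ?_
      rw [mem_levs] at hα
      omega
    simp [level, h]
  | succ m ih =>
    rw [Finset.sum_range_succ, ih,
      ← Finset.sum_filter_add_sum_filter_not (levs n (m + 1)) (fun α => ∑ e, α e ≤ m),
      levs_succ_filter]
    congr 1
    unfold level
    rw [Finset.sum_mul]
    have h : (levs n (m + 1)).filter (fun α => ¬ ∑ e, α e ≤ m) =
        (levs n (m + 1)).filter (fun α => ∑ e, α e = m + 1) := by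
      ext α
      rw [Finset.mem_filter, Finset.mem_filter, mem_levs]
      omega
    rw [h]
    refine Finset.sum_congr rfl fun α hα => ?_
    rw [(Finset.mem_filter.1 hα).2]
    ring

lemma levelVar_eq (m : ℕ) : levelVar n β m = ∑ k ∈ Finset.range (m + 1), level n β k := by
  have h := sum_levs n β 1 m
  simp only [one_pow, mul_one, one_mul] at h
  exact h.symm

/-- **The covariance of correlated copies is the generating function of the Hermite levels.** -/
theorem crossCov_hasSum {t : ℝ} (h0 : 0 ≤ t) (h1 : t ≤ 1) :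
    HasSum (fun k => level n β k * t ^ k) (crossCov n β t) := by
  have h2 := QQ_hasSum (freeEnergy_dom n β) h0 h1
  have hz : ∀ m, (0 : Pair n → ℕ) ∉ levs n m := by
    intro m
    rw [mem_levs]
    simp
  have hmono : Monotone fun m => insert (0 : Pair n → ℕ) (levs n m) := by
    intro m m' hm
    refine Finset.insert_subset_insert _ fun α hα => ?_
    rw [mem_levs] at hα ⊢
    exact ⟨hα.1, hα.2.trans hm⟩
  have hcov : ∀ α : Pair n → ℕ, ∃ m, α ∈ insert (0 : Pair n → ℕ) (levs n m) := by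
    intro α
    by_cases h : α = 0
    · exact ⟨0, by rw [h]; exact Finset.mem_insert_self _ _⟩
    · refine ⟨∑ e, α e, Finset.mem_insert_of_mem ?_⟩
      rw [mem_levs]
      refine ⟨?_, le_rfl⟩
      by_contra h3
      have h4 : ∑ e, α e = 0 := by omega
      rw [Finset.sum_eq_zero_iff] at h4
      exact h (funext fun e => h4 e (Finset.mem_univ e))
  have h3 := h2.comp (tendsto_atTop_finset_of_monotone hmono hcov)
  have h4 : ∀ m, ∑ k ∈ Finset.range (m + 1), level n β k * t ^ k =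
      (∑ α ∈ insert (0 : Pair n → ℕ) (levs n m), t ^ (∑ i, α i) *
        (co (freeEnergy n β) α ^ 2 / ∏ i, ((α i).factorial : ℝ))) -
      (∫ g, freeEnergy n β g ∂(gpi (Pair n))) ^ 2 := by
    intro m
    rw [sum_levs, Finset.sum_insert (hz m), co_zero_idx]
    have h5 : ∑ α ∈ levs n m, t ^ (∑ e, α e) * hcoef n β α ^ 2 =
        ∑ α ∈ levs n m, t ^ (∑ i, α i) *
        (co (freeEnergy n β) α ^ 2 / ∏ i, ((α i).factorial : ℝ)) :=
      Finset.sum_congr rfl fun α _ => by rw [hcoef_sq]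
    rw [h5]
    simp
  rw [hasSum_iff_tendsto_nat_of_nonneg fun k => mul_nonneg (level_nonneg n β k)
    (pow_nonneg h0 k), ← tendsto_add_atTop_iff_nat 1, crossCov_QQ]
  simp_rw [h4]
  exact h3.sub_const _

/-- **Convergence of the Hermite levels.**  If the covariance of copies of correlation `t` converges
for every `t` in `[0, 1/2]` to a power series with nonnegative coefficients, then every Hermite
level of the free energy converges to the corresponding coefficient. -/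
theorem level_tendsto {b : ℝ} {c : ℕ → ℝ} {K : ℝ → ℝ} (hc : ∀ k, 0 ≤ c k)
    (hK : ∀ t, 0 ≤ t → t ≤ 1 / 2 → HasSum (fun k => c k * t ^ k) (K t))
    (hl : ∀ t, 0 ≤ t → t ≤ 1 / 2 → Tendsto (fun n => crossCov n b t) atTop (𝓝 (K t))) (k : ℕ) :
    Tendsto (fun n => level n b k) atTop (𝓝 (c k)) :=
  coef_tendsto (Eventually.of_forall fun n k => level_nonneg n b k) hc
    (Eventually.of_forall fun n t h0 h1 => crossCov_hasSum n b h0 (by linarith)) hK hl k

section limit

variable {m : ℕ → ℝ}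

/-- the coefficients of the limit -/
noncomputable def lco (b : ℝ) (m : ℕ → ℝ) : ℕ → ℝ
  | 0 => 0
  | 1 => 0
  | k + 2 => b ^ 2 / 2 * (m (k + 1) ^ 2 / ((k : ℝ) + 2))

lemma lco_nonneg (b : ℝ) (m : ℕ → ℝ) : ∀ k, 0 ≤ lco b m k
  | 0 => le_rfl
  | 1 => le_rfl
  | k + 2 => by unfold lco; positivity

lemma summable_lim (hm : ∀ k, |m k| ≤ (k : ℝ) + 1) {t : ℝ} (h0 : 0 ≤ t) (h1 : t < 1) :
    Summable fun k : ℕ => t ^ (k + 2) * m (k + 1) ^ 2 / ((k : ℝ) + 2) := by
  have h2 : Summable fun k : ℕ => (k : ℝ) ^ 1 * t ^ k :=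
    summable_pow_mul_geometric_of_norm_lt_one 1 (by rwa [Real.norm_of_nonneg h0])
  have h3 := (summable_nat_add_iff 2).2 h2
  refine Summable.of_nonneg_of_le (fun k => by positivity) (fun k => ?_) h3
  have h4 : m (k + 1) ^ 2 ≤ ((k : ℝ) + 2) ^ 2 := by
    rw [← sq_abs]
    refine pow_le_pow_left₀ (abs_nonneg _) ((hm (k + 1)).trans (le_of_eq ?_)) 2
    push_cast
    ring
  rw [div_le_iff₀ (by positivity)]
  calc t ^ (k + 2) * m (k + 1) ^ 2 ≤ t ^ (k + 2) * ((k : ℝ) + 2) ^ 2 :=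
        mul_le_mul_of_nonneg_left h4 (by positivity)
    _ = ((k + 2 : ℕ) : ℝ) ^ 1 * t ^ (k + 2) * ((k : ℝ) + 2) := by push_cast; ring

lemma hasSum_lco (b : ℝ) (hm : ∀ k, |m k| ≤ (k : ℝ) + 1) {t : ℝ} (h0 : 0 ≤ t) (h1 : t < 1) :
    HasSum (fun k => lco b m k * t ^ k)
      (b ^ 2 / 2 * ∑' k : ℕ, t ^ (k + 2) * m (k + 1) ^ 2 / ((k : ℝ) + 2)) := by
  rw [← hasSum_nat_add_iff' 2]
  have h2 := (summable_lim hm h0 h1).hasSum.mul_left (b ^ 2 / 2)
  have h3 : ∀ k : ℕ, b ^ 2 / 2 * (t ^ (k + 2) * m (k + 1) ^ 2 / ((k : ℝ) + 2)) =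
      lco b m (k + 2) * t ^ (k + 2) := by
    intro k
    unfold lco
    ring
  rw [show (fun k : ℕ => b ^ 2 / 2 * (t ^ (k + 2) * m (k + 1) ^ 2 / ((k : ℝ) + 2))) =
    fun k => lco b m (k + 2) * t ^ (k + 2) from funext h3] at h2
  simpa [Finset.sum_range_succ, lco] using h2

/-- **The limits of the Hermite levels.** -/
theorem level_lim {b : ℝ} (hm : ∀ k, |m k| ≤ (k : ℝ) + 1)
    (hl : ∀ t, 0 ≤ t → t < 1 → Tendsto (fun n => crossCov n b t) atTop
      (𝓝 (b ^ 2 / 2 * ∑' k : ℕ, t ^ (k + 2) * m (k + 1) ^ 2 / ((k : ℝ) + 2)))) :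
    Tendsto (fun n => level n b 1) atTop (𝓝 0) ∧
      ∀ k : ℕ, 1 ≤ k →
        Tendsto (fun n => level n b (k + 1)) atTop (𝓝 (b ^ 2 * m k ^ 2 / (2 * ((k : ℝ) + 1)))) := by
  have h := level_tendsto (b := b) (lco_nonneg b m)
    (fun t h0 h1 => hasSum_lco b hm h0 (by linarith)) (fun t h0 h1 => hl t h0 (by linarith))
  refine ⟨h 1, fun k hk => ?_⟩
  obtain ⟨k, rfl⟩ : ∃ j, k = j + 1 := ⟨k - 1, by omega⟩
  have h2 := h (k + 2)
  have e : lco b m (k + 2) = b ^ 2 * m (k + 1) ^ 2 / (2 * (((k + 1 : ℕ) : ℝ) + 1)) := by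
    unfold lco
    push_cast
    have : (k : ℝ) + 2 ≠ 0 := by positivity
    field_simp
    ring
  rw [e] at h2
  exact h2

/-- the variance carried by the levels `1, …, L` -/
theorem levelVar_lim {b : ℝ} (hm : ∀ k, |m k| ≤ (k : ℝ) + 1)
    (hl : ∀ t, 0 ≤ t → t < 1 → Tendsto (fun n => crossCov n b t) atTop
      (𝓝 (b ^ 2 / 2 * ∑' k : ℕ, t ^ (k + 2) * m (k + 1) ^ 2 / ((k : ℝ) + 2)))) (L : ℕ) :
    Tendsto (fun n => levelVar n b (L + 1)) atTop
      (𝓝 (b ^ 2 / 2 * ∑ k ∈ Finset.range L, m (k + 1) ^ 2 / ((k : ℝ) + 2))) := by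
  have h := level_tendsto (b := b) (lco_nonneg b m)
    (fun t h0 h1 => hasSum_lco b hm h0 (by linarith)) (fun t h0 h1 => hl t h0 (by linarith))
  have e : ∀ n, levelVar n b (L + 1) = ∑ k ∈ Finset.range (L + 2), level n b k :=
    fun n => levelVar_eq n b (L + 1)
  simp_rw [e]
  have h2 := tendsto_finsetSum (Finset.range (L + 2)) fun k _ => h k
  have h3 : ∑ k ∈ Finset.range (L + 2), lco b m k =
      b ^ 2 / 2 * ∑ k ∈ Finset.range L, m (k + 1) ^ 2 / ((k : ℝ) + 2) := by
    rw [Finset.sum_range_succ', Finset.sum_range_succ', Finset.mul_sum]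
    simp [lco]
  rw [h3] at h2
  exact h2

end limit

end Vale.Agent.P146.R3.H793
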