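import Vale.Agent.P146.R2.H749.Bessel

/-!
# P146: completeness of the Hermite polynomials and Parseval's identity
-/

open MeasureTheory ProbabilityTheory

namespace Vale.Agent.P146.R3.H793

open Vale.Agent.P146 Vale.Agent.P146.R2 Vale.Agent.P146.R2.H749

variable {ι : Type*} [Fintype ι]

lemma memLp_dom {h : (ι → ℝ) → ℝ} (hh : Dom h) : MemLp h 2 (gpi ι) :=
  (memLp_two_iff_integrable_sq hh.cont.aestronglyMeasurable).2 (hh.pow 2).integrable

lemma int_mul_dom {f h : (ι → ℝ) → ℝ} (hf : MemLp f 2 (gpi ι)) (hh : Dom h) :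
    Integrable (fun g => f g * h g) (gpi ι) :=
  hf.integrable_mul (memLp_dom hh)

lemma dom_lin (c : ι → ℝ) : Dom (fun g : ι → ℝ => ∑ e, c e * g e) :=
  Dom.sum _ fun e _ => (Dom.coord e).const_mul (c e)

/-- a function orthogonal to all Hermite polynomials is orthogonal to all polynomials -/
lemma pow_orth [DecidableEq ι] {f : (ι → ℝ) → ℝ} (hf : MemLp f 2 (gpi ι))
    (h : ∀ α : ι → ℕ, ∫ g, f g * heM α g ∂(gpi ι) = 0) (c : ι → ℝ) (k : ℕ) :
    ∀ α : ι → ℕ, ∫ g, f g * ((∑ e, c e * g e) ^ k * heM α g) ∂(gpi ι) = 0 := by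
  induction k with
  | zero =>
    intro α
    simpa using h α
  | succ k ih =>
    intro α
    have e1 : ∀ g : ι → ℝ, f g * ((∑ e, c e * g e) ^ (k + 1) * heM α g) =
        ∑ e, (c e * (f g * ((∑ e, c e * g e) ^ k * heM (α + Pi.single e 1) g)) +
          c e * α e * (f g * ((∑ e, c e * g e) ^ k * heM (α - Pi.single e 1) g))) := by
      intro g
      rw [pow_succ]
      have e2 : (∑ e, c e * g e) * heM α g =
          ∑ e, (c e * heM (α + Pi.single e 1) g + c e * α e * heM (α - Pi.single e 1) g) := by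
        rw [Finset.sum_mul]
        refine Finset.sum_congr rfl fun e _ => ?_
        have := coord_heM α e g
        linear_combination (c e) * this
      rw [mul_assoc, e2, Finset.mul_sum, Finset.mul_sum]
      refine Finset.sum_congr rfl fun e _ => ?_
      ring
    have i1 : ∀ α : ι → ℕ, Integrable (fun g => f g * ((∑ e, c e * g e) ^ k * heM α g))
        (gpi ι) := fun α => int_mul_dom hf (((dom_lin c).pow k).mul (dom_heM α))
    simp_rw [e1]
    have i2 : ∀ e ∈ (Finset.univ : Finset ι), Integrable (fun g =>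
        (c e * (f g * ((∑ e, c e * g e) ^ k * heM (α + Pi.single e 1) g)) +
          c e * α e * (f g * ((∑ e, c e * g e) ^ k * heM (α - Pi.single e 1) g)))) (gpi ι) :=
      fun e _ => ((i1 _).const_mul _).add ((i1 _).const_mul _)
    rw [integral_finsetSum _ i2]
    refine Finset.sum_eq_zero fun e _ => ?_
    rw [integral_add ((i1 _).const_mul _) ((i1 _).const_mul _), integral_const_mul,
      integral_const_mul, ih, ih]
    ring

/-- exponentials -/
lemma dom_exp_lin (c : ι → ℝ) : Dom (fun g : ι → ℝ => Real.exp |∑ e, c e * g e|) := by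
  refine ⟨by fun_prop, 1, ∑ e, |c e|, zero_le_one, Finset.sum_nonneg fun _ _ => abs_nonneg _,
    fun g => ?_⟩
  rw [one_mul, abs_of_pos (Real.exp_pos _)]
  refine Real.exp_le_exp.2 ?_
  refine (Finset.abs_sum_le_sum_abs _ _).trans ?_
  rw [Finset.sum_mul]
  refine Finset.sum_le_sum fun e _ => ?_
  rw [abs_mul]
  exact mul_le_mul_of_nonneg_left
    (Finset.single_le_sum (f := fun i => |g i|) (fun _ _ => abs_nonneg _) (Finset.mem_univ e))
    (abs_nonneg _)

lemma exp_orth [DecidableEq ι] {f : (ι → ℝ) → ℝ} (hf : MemLp f 2 (gpi ι))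
    (h : ∀ α : ι → ℕ, ∫ g, f g * heM α g ∂(gpi ι) = 0) (c : ι → ℝ) :
    ∫ g, (f g : ℂ) * Complex.exp (((∑ e, c e * g e : ℝ) : ℂ) * Complex.I) ∂(gpi ι) = 0 := by
  have hcl : Continuous (fun g : ι → ℝ => ∑ e, c e * g e) := (dom_lin c).cont
  have hs := hasSum_integral_of_dominated_convergence (μ := gpi ι)
    (F := fun (k : ℕ) (g : ι → ℝ) =>
      (f g : ℂ) * ((((∑ e, c e * g e : ℝ) : ℂ) * Complex.I) ^ k / (k.factorial : ℂ)))
    (f := fun g => (f g : ℂ) * Complex.exp (((∑ e, c e * g e : ℝ) : ℂ) * Complex.I))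
    (fun k g => |f g| * (|∑ e, c e * g e| ^ k / (k.factorial : ℝ)))
    (fun k => by
      refine AEStronglyMeasurable.mul ?_ ?_
      · exact Complex.continuous_ofReal.comp_aestronglyMeasurable hf.1
      · refine Continuous.aestronglyMeasurable ?_
        fun_prop)
    (fun k => Filter.Eventually.of_forall fun g => by
      rw [norm_mul, norm_div, norm_pow, norm_mul, Complex.norm_I, mul_one, Complex.norm_real,
        Complex.norm_real, Complex.norm_natCast, Real.norm_eq_abs, Real.norm_eq_abs])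
    (Filter.Eventually.of_forall fun g =>
      (Real.summable_pow_div_factorial _).mul_left _)
    (by
      have e : (fun g : ι → ℝ => ∑' k : ℕ, |f g| * (|∑ e, c e * g e| ^ k / (k.factorial : ℝ))) =
          fun g => |f g| * Real.exp |∑ e, c e * g e| := by
        funext g
        rw [tsum_mul_left, Real.exp_eq_exp_ℝ, NormedSpace.exp_eq_tsum_div]
      rw [e]
      exact int_mul_dom hf.abs (dom_exp_lin c))
    (Filter.Eventually.of_forall fun g => by
      refine HasSum.mul_left _ ?_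
      rw [Complex.exp_eq_exp_ℂ]
      exact NormedSpace.expSeries_div_hasSum_exp _)
  have h0 : ∀ k : ℕ, ∫ g, (f g : ℂ) *
      ((((∑ e, c e * g e : ℝ) : ℂ) * Complex.I) ^ k / (k.factorial : ℂ)) ∂(gpi ι) = 0 := by
    intro k
    have h1 := pow_orth hf h c k 0
    have h2 : ∀ g : ι → ℝ, f g * ((∑ e, c e * g e) ^ k * heM 0 g) =
        f g * (∑ e, c e * g e) ^ k := by
      intro g
      simp [heM]
    simp_rw [h2] at h1
    have h3 : ∀ g : ι → ℝ, (f g : ℂ) *
        ((((∑ e, c e * g e : ℝ) : ℂ) * Complex.I) ^ k / (k.factorial : ℂ)) =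
        (Complex.I ^ k / (k.factorial : ℂ)) * ((f g * (∑ e, c e * g e) ^ k : ℝ) : ℂ) := by
      intro g
      push_cast
      rw [mul_pow]
      ring
    simp_rw [h3]
    rw [integral_const_mul, integral_complex_ofReal, h1]
    simp
  rw [← hs.tsum_eq]
  simp_rw [h0]
  exact tsum_zero

/-- **Completeness of the Hermite polynomials.** -/
theorem complete [DecidableEq ι] {f : (ι → ℝ) → ℝ} (hf : MemLp f 2 (gpi ι))
    (h : ∀ α : ι → ℕ, ∫ g, f g * heM α g ∂(gpi ι) = 0) : f =ᵐ[gpi ι] 0 := by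
  have hfi : Integrable f (gpi ι) := hf.integrable (by norm_num)
  have hm : AEMeasurable f (gpi ι) := hf.1.aemeasurable
  have hm2 : AEMeasurable (fun g => ENNReal.ofReal (-f g)) (gpi ι) := hm.neg.ennreal_ofReal
  have fin1 : IsFiniteMeasure ((gpi ι).withDensity fun g => ENNReal.ofReal (f g)) :=
    isFiniteMeasure_withDensity_ofReal hfi.2
  have fin2 : IsFiniteMeasure ((gpi ι).withDensity fun g => ENNReal.ofReal (-f g)) :=
    isFiniteMeasure_withDensity_ofReal hfi.neg.2
  have key : (gpi ι).withDensity (fun g => ENNReal.ofReal (f g)) =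
      (gpi ι).withDensity fun g => ENNReal.ofReal (-f g) := by
    refine Measure.ext_of_charFunDual ?_
    funext L
    rw [charFunDual_apply, charFunDual_apply,
      integral_withDensity_eq_integral_toReal_smul₀ hm.ennreal_ofReal
        (Filter.Eventually.of_forall fun _ => ENNReal.ofReal_lt_top),
      integral_withDensity_eq_integral_toReal_smul₀ hm2
        (Filter.Eventually.of_forall fun _ => ENNReal.ofReal_lt_top)]
    have hL : ∀ v : ι → ℝ, L v = ∑ e, L (Pi.single e 1) * v e := by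
      intro v
      conv_lhs => rw [show v = ∑ e, v e • (Pi.single e (1 : ℝ) : ι → ℝ) from by
        funext x
        simp [Finset.sum_apply, Pi.single_apply]]
      rw [map_sum]
      refine Finset.sum_congr rfl fun e _ => ?_
      rw [map_smul, smul_eq_mul, mul_comm]
    have h1 := exp_orth hf h fun e => L (Pi.single e 1)
    simp_rw [← hL] at h1
    have hb : ∀ {u : (ι → ℝ) → ℝ}, Integrable u (gpi ι) →
        Integrable (fun v => u v • Complex.exp ((L v : ℂ) * Complex.I)) (gpi ι) := by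
      intro u hu
      refine Integrable.mono' hu.norm ?_ (Filter.Eventually.of_forall fun v => ?_)
      · refine hu.1.smul ?_
        refine Continuous.aestronglyMeasurable ?_
        fun_prop
      · rw [norm_smul, Complex.norm_exp_ofReal_mul_I, mul_one]
    have i1 : Integrable (fun v => (ENNReal.ofReal (f v)).toReal) (gpi ι) := by
      simp_rw [ENNReal.toReal_ofReal']
      exact hfi.pos_part
    have i2 : Integrable (fun v => (ENNReal.ofReal (-f v)).toReal) (gpi ι) := by
      simp_rw [ENNReal.toReal_ofReal']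
      exact hfi.neg_part
    rw [← sub_eq_zero, ← integral_sub (hb i1) (hb i2), ← h1]
    refine integral_congr_ae (Filter.Eventually.of_forall fun v => ?_)
    simp only
    rw [← sub_smul, ENNReal.toReal_ofReal', ENNReal.toReal_ofReal', Complex.real_smul]
    congr 2
    rcases le_total 0 (f v) with h2 | h2
    · rw [max_eq_left h2, max_eq_right (by linarith)]
      ring
    · rw [max_eq_right h2, max_eq_left (by linarith)]
      ring
  have hne : ∫⁻ g, ENNReal.ofReal (f g) ∂(gpi ι) ≠ ⊤ := by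
    refine ((lintegral_mono fun x => ?_).trans_lt hfi.2).ne
    exact Real.ofReal_le_enorm _
  have h2 := (withDensity_eq_iff hm.ennreal_ofReal hm2 hne).1 key
  filter_upwards [h2] with g hg
  simp only [Pi.zero_apply]
  rcases le_total 0 (f g) with h3 | h3
  · have : ENNReal.ofReal (-f g) = 0 := ENNReal.ofReal_of_nonpos (by linarith)
    rw [this, ENNReal.ofReal_eq_zero] at hg
    linarith
  · have : ENNReal.ofReal (f g) = 0 := ENNReal.ofReal_of_nonpos h3
    rw [this, eq_comm, ENNReal.ofReal_eq_zero] at hg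
    linarith

/-- `√(α!)` -/
noncomputable def nrm (α : ι → ℕ) : ℝ := Real.sqrt (∏ i, ((α i).factorial : ℝ))

lemma nrm_pos (α : ι → ℕ) : 0 < nrm α := Real.sqrt_pos.2 (by positivity)

lemma nrm_sq (α : ι → ℕ) : nrm α ^ 2 = ∏ i, ((α i).factorial : ℝ) :=
  Real.sq_sqrt (by positivity)

lemma memLp_vec (α : ι → ℕ) : MemLp (fun g : ι → ℝ => (nrm α)⁻¹ * heM α g) 2 (gpi ι) :=
  memLp_dom ((dom_heM α).const_mul _)

/-- the normalised Hermite functions -/
noncomputable def vec (α : ι → ℕ) : Lp ℝ 2 (gpi ι) := (memLp_vec α).toLp _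

lemma inner_vec {f : (ι → ℝ) → ℝ} (hf : MemLp f 2 (gpi ι)) (α : ι → ℕ) :
    inner ℝ (hf.toLp f) (vec α) = (nrm α)⁻¹ * ∫ g, f g * heM α g ∂(gpi ι) := by
  rw [L2.inner_def, ← integral_const_mul]
  refine integral_congr_ae ?_
  filter_upwards [hf.coeFn_toLp, (memLp_vec α).coeFn_toLp] with g h1 h2
  unfold vec
  rw [h1, h2, real_inner_eq_re_inner]
  simp
  ring

lemma inner_vec_vec [DecidableEq ι] (α β : ι → ℕ) :
    inner ℝ (vec α) (vec β) = if α = β then (1 : ℝ) else 0 := by
  have h1 := inner_vec (memLp_vec α) β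
  have h2 : ∫ g, (nrm α)⁻¹ * heM α g * heM β g ∂(gpi ι) = (nrm α)⁻¹ * co (heM α) β := by
    unfold co
    rw [← integral_const_mul]
    refine integral_congr_ae (Filter.Eventually.of_forall fun g => ?_)
    simp only
    ring
  rw [h2, orth _ α β le_rfl] at h1
  refine h1.trans ?_
  split_ifs with h
  · subst h
    rw [← nrm_sq]
    have := (nrm_pos α).ne'
    field_simp
  · simp

lemma orthonormal_vec [DecidableEq ι] : Orthonormal ℝ (vec : (ι → ℕ) → Lp ℝ 2 (gpi ι)) := by
  rw [orthonormal_iff_ite]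
  exact inner_vec_vec

lemma span_vec [DecidableEq ι] :
    (Submodule.span ℝ (Set.range (vec : (ι → ℕ) → Lp ℝ 2 (gpi ι))))ᗮ = ⊥ := by
  rw [Submodule.eq_bot_iff]
  intro x hx
  have h1 : ∀ α : ι → ℕ, inner ℝ (vec α) x = (0 : ℝ) := fun α =>
    (Submodule.mem_orthogonal _ _).1 hx _ (Submodule.subset_span ⟨α, rfl⟩)
  have hx2 : MemLp (x : (ι → ℝ) → ℝ) 2 (gpi ι) := Lp.memLp x
  have e : hx2.toLp (x : (ι → ℝ) → ℝ) = x := Lp.toLp_coeFn x hx2
  have h2 : ∀ α : ι → ℕ, ∫ g, x g * heM α g ∂(gpi ι) = 0 := by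
    intro α
    have h3 := inner_vec hx2 α
    rw [e, real_inner_comm, h1] at h3
    have := (nrm_pos α).ne'
    rcases mul_eq_zero.1 h3.symm with h4 | h4
    · exact absurd (inv_eq_zero.1 h4) this
    · exact h4
  exact (Lp.eq_zero_iff_ae_eq_zero).2 (complete hx2 h2)

/-- **Parseval's identity** for the Hermite expansion. -/
theorem parseval [DecidableEq ι] {f : (ι → ℝ) → ℝ} (hf : MemLp f 2 (gpi ι)) :
    HasSum (fun α : ι → ℕ => co f α ^ 2 / ∏ i, ((α i).factorial : ℝ))
      (∫ g, f g ^ 2 ∂(gpi ι)) := by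
  obtain ⟨b, hb⟩ : ∃ b : HilbertBasis (ι → ℕ) ℝ (Lp ℝ 2 (gpi ι)), ⇑b = vec :=
    ⟨HilbertBasis.mkOfOrthogonalEqBot orthonormal_vec span_vec,
      HilbertBasis.coe_mkOfOrthogonalEqBot _ _⟩
  have h1 := b.hasSum_inner_mul_inner (hf.toLp f) (hf.toLp f)
  rw [hb] at h1
  have h2 : inner ℝ (hf.toLp f) (hf.toLp f) = ∫ g, f g ^ 2 ∂(gpi ι) := by
    rw [L2.inner_def]
    refine integral_congr_ae ?_
    filter_upwards [hf.coeFn_toLp] with g h3
    rw [h3]
    simp
  rw [h2] at h1
  have h4 : ∀ α : ι → ℕ, inner ℝ (hf.toLp f) (vec α) * inner ℝ (vec α) (hf.toLp f) =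
      co f α ^ 2 / ∏ i, ((α i).factorial : ℝ) := by
    intro α
    rw [real_inner_comm (hf.toLp f) (vec α), inner_vec hf α, ← nrm_sq]
    unfold co
    have := (nrm_pos α).ne'
    field_simp
  rw [show (fun α : ι → ℕ => inner ℝ (hf.toLp f) (vec α) * inner ℝ (vec α) (hf.toLp f)) =
    fun α => co f α ^ 2 / ∏ i, ((α i).factorial : ℝ) from funext h4] at h1
  exact h1

end Vale.Agent.P146.R3.H793
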